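import Vale.Agent.P224.R2.H389.P1.Main
import Vale.Agent.P224.R2.H526.Q300b.Law
import Vale.Agent.P224.R2.H526.Q300b.Id

/-!
**Dimensions from 300 on**: the mean normal of a minimal hypersurface with volume at most the volume
of the least Clifford hypersurface has norm less than `91 / 20000`.
-/

namespace Vale.Agent.P224.R2.H526.Q300b

open MeasureTheory Set Filter Function Module Vale.Agent.P224 Vale.Agent.P224.UE
open Vale.Agent.P224.UG Vale.Agent.P224.POS Vale.Agent.P224.PU Vale.Agent.P224.R2.H389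
open scoped Topology RealInnerProductSpace ENNReal ContDiff Manifold

noncomputable section

variable {V W M : Type*} [NormedAddCommGroup V] [InnerProductSpace ℝ V] [FiniteDimensional ℝ V]
  [NormedAddCommGroup W] [InnerProductSpace ℝ W] [FiniteDimensional ℝ W]
  [TopologicalSpace M] [ChartedSpace V M]
  [MeasurableSpace V] [BorelSpace V] [MeasurableSpace M] [BorelSpace M]
  [IsManifold 𝓘(ℝ, V) ∞ M] [CompactSpace M] [T2Space M] [ConnectedSpace M]
  [MeasurableSpace W] [BorelSpace W]

/-- the level -/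
lemma level {m : ℕ} (hm : 300 ≤ m) :
    leastClifford m ≤ (14142136 / 10000000 + 3548838 / 10000000 / (m + 1)) * sphereVol m := by
  have h := leastClifford_lin (n := 300) (κ := 3548838 / 10000000) (by norm_num) (by norm_num) hm
  norm_num at h ⊢
  exact h

/-- **The far range in dimensions from 300 on.** -/
theorem far (hm : 300 ≤ finrank ℝ V) (hW : finrank ℝ W = finrank ℝ V + 2)
    {F : M → W} (hF : SphImm V F) (hmin : ∀ x n, IsUnitNormal V F x n → meanCurv V F x n = 0)
    (hng : ¬ ∃ a : W, a ≠ 0 ∧ ∀ x, ⟪F x, a⟫ = 0)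
    {N : M → W} (hNs : ContMDiff 𝓘(ℝ, V) 𝓘(ℝ, W) ∞ N) (hN : ∀ x, IsUnitNormal V F x (N x))
    (htop : ‖∫ x, N x ∂(volM V F)‖ ≤ sphereVol (finrank ℝ V)) {e : W}
    (he : (volM V F).real univ • e = ∫ x, N x ∂(volM V F))
    (hhi : (volM V F).real univ ≤ (14142136 / 10000000 + 3548838 / 10000000 / (finrank ℝ V + 1))
      * sphereVol (finrank ℝ V)) : ‖e‖ < 91 / 20000 := by
  have hS0 : 0 < sphereVol (finrank ℝ V) := sphereVol_pos' _
  have hm' : (300 : ℝ) ≤ finrank ℝ V := by exact_mod_cast hm
  have hm1 : (0 : ℝ) < finrank ℝ V + 1 := by positivity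
  have hhi1 : (volM V F).real univ ≤ (14142136 / 10000000 + 3649223 / 10000000 / (finrank ℝ V + 1))
      * sphereVol (finrank ℝ V) := by
    refine hhi.trans (mul_le_mul_of_nonneg_right ?_ hS0.le)
    gcongr
    norm_num
  have hhi' : (volM V F).real univ ≤ 14352 / 10000 * sphereVol (finrank ℝ V) := by
    refine hhi.trans (mul_le_mul_of_nonneg_right ?_ hS0.le)
    have h37 : 3548838 / 10000000 / ((finrank ℝ V : ℝ) + 1) ≤ 3548838 / 10000000 / 301 :=
      div_le_div_of_nonneg_left (by norm_num) (by norm_num) (by linarith)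
    refine (add_le_add_right h37 _).trans ?_
    norm_num
  have hfar := P1.far (by omega) hW hF hmin hng hNs hN htop he hhi1
  by_contra hcon
  rw [not_lt] at hcon
  have hinj := inj_of_vol (by omega) hW hF hmin hhi'
  have he0 : e ≠ 0 := by
    rintro rfl
    rw [norm_zero] at hcon
    linarith
  have hA : 0 < (volM V F).real univ := by
    rcases (measureReal_nonneg (μ := volM V F) (s := univ)).eq_or_lt with h | h
    · exfalso
      have hfin : IsFiniteMeasure (volM V F) := isFiniteMeasure_volM hF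
      have h1 := U1413.mainU (by omega) hW hF hmin hng
      have h2 := ENNReal.toReal_mono (measure_ne_top _ _) h1
      rw [ENNReal.toReal_ofReal (by positivity)] at h2
      have h3 : (volM V F).real univ = ((volM V F) univ).toReal := rfl
      rw [← h3, ← h] at h2
      nlinarith
    · exact h
  refine far_of_pair (by omega) hW hF hmin hNs hN hinj he he0 hA ok_rows0 ok_rows1 l0_rows0
    l0_rows1 (K := 301) (by norm_num) (by linarith) hpt fun θ q hθ0 hθ1 hθ hq0 hq1 => ?_
  refine num hθ0 hθ1 ?_ hcon hfar.le hq0 hq1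
  rw [div_le_iff₀ hS0]
  refine hhi.trans (mul_le_mul_of_nonneg_right (le_of_eq ?_) hS0.le)
  rw [hθ]
  ring

/-- **The far range in dimensions from 300 on**, for the volume of the least Clifford
hypersurface. -/
theorem far_lc (hm : 300 ≤ finrank ℝ V) (hW : finrank ℝ W = finrank ℝ V + 2)
    {F : M → W} (hF : SphImm V F) (hmin : ∀ x n, IsUnitNormal V F x n → meanCurv V F x n = 0)
    (hng : ¬ ∃ a : W, a ≠ 0 ∧ ∀ x, ⟪F x, a⟫ = 0)
    {N : M → W} (hNs : ContMDiff 𝓘(ℝ, V) 𝓘(ℝ, W) ∞ N) (hN : ∀ x, IsUnitNormal V F x (N x))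
    (htop : ‖∫ x, N x ∂(volM V F)‖ ≤ sphereVol (finrank ℝ V)) {e : W}
    (he : (volM V F).real univ • e = ∫ x, N x ∂(volM V F))
    (hhi : (volM V F).real univ ≤ leastClifford (finrank ℝ V)) : ‖e‖ < 91 / 20000 :=
  far hm hW hF hmin hng hNs hN htop he (hhi.trans (level hm))

end

end Vale.Agent.P224.R2.H526.Q300b
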